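import Vale.Agent.P029.Main

namespace Vale.Agent.Results.P029.DeligneDrinfeld

open Vale.Agent.P029

theorem result : (∃ D : L → LieDerivation ℚ L L, IsIhD D) ∧
    ∀ D : L → LieDerivation ℚ L L, IsIhD D → ∃ (σ : ℕ → L) (φ : F →ₗ[ℚ] L),
      (∀ k, σ k ∈ W ∧ Homog (2 * k + 3) (σ k)) ∧
      (∀ k, φ (FreeLieAlgebra.of ℚ k) = σ k) ∧
      (∀ a b, φ ⁅a, b⁆ = D (φ a) (φ b) - D (φ b) (φ a) + ⁅φ a, φ b⁆) ∧
      Function.Injective φ ∧ Set.range φ = W ∧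
      ∀ (n : ℕ) (a : F), HomogF n a ↔ Homog n (φ a) :=
  main

end Vale.Agent.Results.P029.DeligneDrinfeld
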